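import Vale.Agent.P282.Main
import Vale.Agent.P282.Main0
import Vale.Agent.P282.XLsc

open scoped ENNReal
open Vale.Agent.P282

theorem Vale.Agent.Results.P282.GapStd.result :
    ∀ (n : ℕ), 2 ≤ n → ∀ (R K : Type) [CommRing R] [IsDomain R] [Algebra ℂ R]
      [Algebra.FiniteType ℂ R] [IsIntegrallyClosed R] [Field K] [Algebra R K] [IsFractionRing R K]
      [Algebra ℂ K] [IsScalarTower ℂ R K], ringKrullDim R = n →
      ∀ ω : PForm K n, ω.Generates R → ω.KltS R → ∀ (m : Ideal R) [m.IsMaximal],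
        ¬ IsRegularLocalRing (Localization.AtPrime m) →
          nvolS m ω ≤ 2 * ((n : ℝ≥0∞) - 1) ^ n ∧
            (nvolS m ω = 2 * ((n : ℝ≥0∞) - 1) ^ n ↔ IsODP n m) := by
  intro n hn R K _ _ _ _ _ _ _ _ _ _ hd ω hg hk m _ hs
  have : Algebra.EssFiniteType R K := Algebra.EssFiniteType.of_isLocalization K (nonZeroDivisors R)
  have : Algebra.EssFiniteType ℂ K := Algebra.EssFiniteType.comp ℂ R K
  have hm : m ≠ ⊥ := by
    rintro rfl
    have h1 : IsField R := Ring.isField_iff_maximal_bot.2 inferInstance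
    rw [ringKrullDim_eq_zero_of_isField h1] at hd
    have h2 : n = 0 := by exact_mod_cast hd.symm
    omega
  rw [← bd_eq' hn, nvolS_eq (by omega) ω m hm]
  exact main hn ω hg (klt_of_kltS (by omega) ω hk) m hs
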